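import Vale.Agent.P154.GW.TreeTC

/-!
# P154, Kesten-Stigum direction (three colours, `0 ≤ lam < 1`): lower bounds on a fixed tree

`UU x = max (1 - 2 x) 0`.  From `merge_X_low` (`x'' ≥ x + x' - 2 x x'`) and `merge_X_mono` (`x'' ≥ x`) one gets `UU x'' ≤ UU x * UU x'`,
hence `UU (XK lam n k c) ≤ ∏ j, UU (lam^2 * xT lam n (c j))`.  Also `aT ≥ xT / 2` (because `|e i| ≤ 2`, `e i ^ 2 ≤ 2 |e i|`).
-/

namespace Vale.Agent.P154

open Finset

noncomputable def UU (x : ℝ) : ℝ := max (1 - 2 * x) 0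

theorem UU_nonneg (x : ℝ) : 0 ≤ UU x := le_max_right _ _

theorem UU_le_one (x : ℝ) (hx : 0 ≤ x) : UU x ≤ 1 := by
  unfold UU
  exact max_le (by linarith) zero_le_one

theorem UU_ge (x : ℝ) : 1 - 2 * x ≤ UU x := le_max_left _ _

theorem UU_anti (x y : ℝ) (h : x ≤ y) : UU y ≤ UU x := by
  unfold UU
  exact max_le_max (by linarith) le_rfl

/-- cases `x ≤ 1/2` or not, `y ≤ 1/2` or not. -/
theorem UU_merge (x y z : ℝ) (hl : x + y - 2 * x * y ≤ z) (hm : x ≤ z) : UU z ≤ UU x * UU y := by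
  unfold UU
  rcases le_total (1 - 2 * x) 0 with hx | hx
  · rw [max_eq_right hx, zero_mul]
    exact max_le (by linarith) le_rfl
  · rw [max_eq_left hx]
    rcases le_total (1 - 2 * y) 0 with hy | hy
    · rw [max_eq_right hy, mul_zero]
      refine max_le ?_ le_rfl
      nlinarith [mul_nonneg hx (neg_nonneg.mpr hy)]
    · rw [max_eq_left hy]
      refine max_le ?_ (mul_nonneg hx hy)
      nlinarith

/-- cases `2 x ≤ 1` or not. -/
theorem UU_scale (s x : ℝ) (h0 : 0 ≤ s) (h1 : s ≤ 1) (hx : 0 ≤ x) : UU (s * x) ≤ 1 - s * (1 - UU x) := by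
  unfold UU
  rcases le_total (1 - 2 * x) 0 with h | h
  · rw [max_eq_right h]
    refine max_le ?_ (by linarith)
    nlinarith [mul_nonneg h0 (neg_nonneg.mpr h)]
  · rw [max_eq_left h]
    refine max_le (by nlinarith) ?_
    nlinarith [mul_nonneg (sub_nonneg.mpr h1) hx]

/-- pointwise: `al3 / 2 ≤ (1/6) ∑ |e i|`, since `-1 ≤ e i ≤ 2`. -/
theorem Good.tv_ge {ι : Type} [Fintype ι] {w : ι → ℝ} {e : ι → Fin 3 → ℝ} (h : Good w e) :
    Xf w e / 2 ≤ ∑ η, w η * ((1 / 6) * (|e η 0| + |e η 1| + |e η 2|)) := by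
  have key : ∀ u : ℝ, -1 ≤ u → u ≤ 2 → u ^ 2 ≤ 2 * |u| := by
    intro u hl hu
    rcases le_total 0 u with h | h
    · rw [abs_of_nonneg h]; nlinarith
    · rw [abs_of_nonpos h]; nlinarith
  unfold Xf
  rw [Finset.sum_div]
  refine Finset.sum_le_sum fun η _ => ?_
  rw [mul_div_assoc]
  refine mul_le_mul_of_nonneg_left ?_ (h.pos η).le
  have hz := h.zero η
  have g0 := h.ge η 0
  have g1 := h.ge η 1
  have g2 := h.ge η 2
  have k0 := key (e η 0) g0 (by linarith)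
  have k1 := key (e η 1) g1 (by linarith)
  have k2 := key (e η 2) g2 (by linarith)
  unfold al3
  linarith

/-- `aT_eq`, `treeT_good`, `Good.tv_ge`. -/
theorem aT_ge (lam : ℝ) (h0 : 0 ≤ lam) (h1 : lam < 1) (n : ℕ) (T : GT n) :
    xT lam n T / 2 ≤ aT 3 lam n T := by
  rw [aT_eq]
  exact (treeT_good lam h0 h1 n T).1.tv_ge

end Vale.Agent.P154
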