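import Vale.Agent.P154.KS.A1

/-!
# P154, Kesten-Stigum direction: `UU (XK lam n k c) ≤ ∏ j, UU (lam^2 * xT lam n (c j))` on a fixed tree
-/

namespace Vale.Agent.P154

open Finset

/-- as `prodD_step`, with `merge_X_low` and `merge_X_mono` instead of `merge_X`. -/
theorem prodD_low {k : ℕ} {F : Fin (k + 1) → Type} [∀ j, Fintype (F j)] (W : ∀ j, F j → ℝ)
    (E : ∀ j, F j → Fin 3 → ℝ) (h : ∀ j, Good (W j) (E j)) (hs : ∀ j η i, -1 < E j η i)
    (hi : ∀ j, Inv (W j) (E j)) :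
    UU (Xf (wD W E) (eD E)) ≤ UU (Xf (W 0) (E 0))
      * UU (Xf (wD (fun j : Fin k => W j.succ) (fun j : Fin k => E j.succ)) (eD (fun j : Fin k => E j.succ))) := by
  obtain ⟨g, _⟩ := prodD_all k (fun j => F j.succ) (fun j => W j.succ) (fun j => E j.succ)
    (fun j => h j.succ) (fun j => hs j.succ) (fun j => hi j.succ)
  have hw : wD W E = fun η => wMW (W 0) (E 0) (wD (fun j : Fin k => W j.succ)
      (fun j : Fin k => E j.succ)) (eD (fun j : Fin k => E j.succ)) (cE F η) :=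
    funext (wD_succ W E h hs)
  have he : eD E = fun η => eMW (E 0) (eD (fun j : Fin k => E j.succ)) (cE F η) :=
    funext (eD_succ W E h hs)
  rw [hw, he, Xf_equiv (cE F)]
  exact UU_merge _ _ _ (merge_X_low (h 0) (hs 0) g) (merge_X_mono (h 0) (hs 0) g)

/-- as `XK_succ`, with `prodD_low`. -/
theorem XK_succ_UU (lam : ℝ) (h0 : 0 ≤ lam) (h1 : lam < 1) (n k : ℕ) (c : Fin (k + 1) → GT n) :
    UU (XK lam n (k + 1) c) ≤ UU (lam ^ 2 * xT lam n (c 0)) * UU (XK lam n k (Fin.tail c)) := by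
  have hst := prodD_low (F := fun j => ConfT 3 n (c j)) (fun j => margT 3 lam n (c j))
    (fun j ξ i => lam * evT lam n (c j) ξ i)
    (fun j => (treeT_good lam h0 h1 n (c j)).1.scale lam h0 h1.le)
    (fun j η i => (treeT_good lam h0 h1 n (c j)).1.scale_strict lam h0 h1 η i)
    (fun j => Inv.scale (treeT_good lam h0 h1 n (c j)).1 (treeT_good lam h0 h1 n (c j)).2
      lam h0 h1)
  have hsc : Xf (margT 3 lam n (c 0)) (fun ξ i => lam * evT lam n (c 0) ξ i)
      = lam ^ 2 * xT lam n (c 0) := Xf_scale _ _ lam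
  rw [hsc] at hst
  exact hst

/-- induction on `k` (`XK_zero`, `Fin.prod_univ_succ`). -/
theorem XK_UU (lam : ℝ) (h0 : 0 ≤ lam) (h1 : lam < 1) (n k : ℕ) (c : Fin k → GT n) :
    UU (XK lam n k c) ≤ ∏ j, UU (lam ^ 2 * xT lam n (c j)) := by
  induction k with
  | zero =>
    rw [XK_zero]
    simp [UU]
  | succ k ih =>
    rw [Fin.prod_univ_succ]
    refine (XK_succ_UU lam h0 h1 n k c).trans ?_
    exact mul_le_mul_of_nonneg_left (ih (Fin.tail c)) (UU_nonneg _)

end Vale.Agent.P154
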