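import Vale.Agent.P154.KS.A2
import Vale.Agent.P154.GW.Reg

/-!
# P154, Kesten-Stigum direction on the regular tree (three colours, `0 ≤ lam < 1`, `d lam^2 > 1`)

`x n = xT lam n (regT d n)`, `x 0 = 1`, `UU (x (n+1)) ≤ UU (lam^2 x n) ^ d`.  With `ρ = d lam^2 > 1`, `δ = (ρ - 1) / (2 ρ)`:
if `x n ≥ δ` then `UU (x (n+1)) ≤ (1 - 2 s δ)^d ≤ 1 / (1 + 2 s δ)^d ≤ 1 / (1 + 2 d s δ) = 1 / ρ` (Bernoulli), so `x (n+1) ≥ (1 - 1/ρ)/2 = δ`.
-/

namespace Vale.Agent.P154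

open Finset

theorem seq_low (d : ℕ) (s : ℝ) (x : ℕ → ℝ) (hs0 : 0 ≤ s) (hs1 : s ≤ 1) (hρ : 1 < (d : ℝ) * s)
    (h0 : x 0 = 1) (hs : ∀ n, UU (x (n + 1)) ≤ UU (s * x n) ^ d) (n : ℕ) :
    ((d : ℝ) * s - 1) / (2 * ((d : ℝ) * s)) ≤ x n := by
  set ρ : ℝ := (d : ℝ) * s with hρdef
  have hρ0 : 0 < ρ := by linarith
  set δ : ℝ := (ρ - 1) / (2 * ρ) with hδ
  have hδ0 : 0 ≤ δ := div_nonneg (by linarith) (by linarith)
  have hδρ : 2 * ρ * δ = ρ - 1 := by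
    rw [hδ]; field_simp
  have hδ1 : 2 * δ < 1 := by
    by_contra hc
    have hc' : 1 ≤ 2 * δ := not_lt.mp hc
    nlinarith
  induction n with
  | zero => rw [h0]; linarith
  | succ n ih =>
    set t : ℝ := 2 * (s * δ) with ht
    have ht0 : 0 ≤ t := by positivity
    have ht1 : t ≤ 1 := by
      have : s * δ ≤ 1 * δ := mul_le_mul_of_nonneg_right hs1 hδ0
      rw [ht]; linarith
    have hU : UU (s * δ) = 1 - t := by
      unfold UU
      rw [max_eq_left (by rw [ht] at ht1; linarith)]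
    have h1 : UU (s * x n) ≤ 1 - t := by
      rw [← hU]
      exact UU_anti _ _ (mul_le_mul_of_nonneg_left ih hs0)
    have h2 : UU (s * x n) ^ d ≤ (1 - t) ^ d := pow_le_pow_left₀ (UU_nonneg _) h1 d
    have h3 : (1 - t) ^ d * (1 + t) ^ d ≤ 1 := by
      rw [← mul_pow]
      apply pow_le_one₀
      · exact mul_nonneg (by linarith) (by linarith)
      · nlinarith [sq_nonneg t]
    have h4 : 1 + (d : ℝ) * t ≤ (1 + t) ^ d := one_add_mul_le_pow (by linarith) d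
    have h5 : 1 + (d : ℝ) * t = ρ := by
      rw [ht, hρdef]
      have : (d : ℝ) * (2 * (s * δ)) = 2 * ((d : ℝ) * s) * δ := by ring
      rw [this, ← hρdef, hδρ]; ring
    have hP0 : 0 ≤ (1 - t) ^ d := pow_nonneg (by linarith) d
    have h6 : (1 - t) ^ d * ρ ≤ 1 := by
      calc (1 - t) ^ d * ρ ≤ (1 - t) ^ d * (1 + t) ^ d := by
            apply mul_le_mul_of_nonneg_left _ hP0
            rw [← h5]; exact h4
        _ ≤ 1 := h3
    have h7 : 1 - 2 * x (n + 1) ≤ (1 - t) ^ d := (UU_ge _).trans ((hs n).trans h2)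
    have h8 : (1 - 2 * x (n + 1)) * ρ ≤ 1 :=
      (mul_le_mul_of_nonneg_right h7 hρ0.le).trans h6
    rw [hδ, div_le_iff₀ (by linarith)]
    nlinarith

/-- `xT_succ`, `XK_UU`, `Finset.prod_const`. -/
theorem xreg_UU (d : ℕ) (lam : ℝ) (h0 : 0 ≤ lam) (h1 : lam < 1) (n : ℕ) :
    UU (xT lam (n + 1) (regT d (n + 1))) ≤ UU (lam ^ 2 * xT lam n (regT d n)) ^ d := by
  rw [xT_succ lam h0 h1 n (regT d (n + 1))]
  have h := XK_UU lam h0 h1 n d (fun _ => regT d n)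
  rw [Finset.prod_const, Finset.card_univ, Fintype.card_fin] at h
  exact h

/-- `seq_low`, `baseT_X`, `aT_ge`, `aT_regT`. -/
theorem reg_reconstruction (d : ℕ) (lam : ℝ) (h0 : 0 ≤ lam) (h1 : lam < 1)
    (h2 : 1 < (d : ℝ) * lam ^ 2) (n : ℕ) :
    ((d : ℝ) * lam ^ 2 - 1) / (4 * ((d : ℝ) * lam ^ 2)) ≤ aTV 3 d lam n := by
  have hs1 : lam ^ 2 ≤ 1 := by nlinarith
  have hx := seq_low d (lam ^ 2) (fun n => xT lam n (regT d n)) (sq_nonneg lam) hs1 h2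
    (baseT_X lam (regT d 0)) (fun n => xreg_UU d lam h0 h1 n) n
  have ha := aT_ge lam h0 h1 n (regT d n)
  rw [aT_regT] at ha
  have he : ((d : ℝ) * lam ^ 2 - 1) / (4 * ((d : ℝ) * lam ^ 2))
      = ((d : ℝ) * lam ^ 2 - 1) / (2 * ((d : ℝ) * lam ^ 2)) / 2 := by
    rw [div_div]; ring_nf
  rw [he]
  linarith

end Vale.Agent.P154
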