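import Vale.Agent.P154.KS.A2
import Vale.Agent.P154.GW.Ext2

/-!
# P154, Kesten-Stigum direction on the Poisson Galton-Watson tree (three colours, `0 ≤ lam < 1`, `d lam^2 > 1`)

`VG n = ∑' T, probT d n T * (1 - UU (xT lam n T))`, `VG 0 = 1`.
`UU (xT (n+1) T) ≤ ∏ j, UU (lam^2 xT n (T.2 j)) ≤ ∏ j, (1 - lam^2 (1 - UU (xT n (T.2 j))))`; summing over `T` with `hasSum_sig_gen`
(`g t = probT d n t * (1 - lam^2 (1 - UU (xT lam n t)))`, `∑ g = 1 - lam^2 VG n`) gives `1 - VG (n+1) ≤ exp (- d lam^2 VG n)`.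
With `ρ = d lam^2 > 1`, `δ = (ρ - 1) / ρ`: `VG n ≥ δ` implies `1 - VG (n+1) ≤ exp (-ρ δ) ≤ 1 / (1 + ρ δ) = 1 / ρ`.
Finally `aT ≥ xT / 2 ≥ (1 - UU xT) / 4`.
-/

namespace Vale.Agent.P154

open Finset Filter Topology

noncomputable def VG (d lam : ℝ) (n : ℕ) : ℝ := ∑' T : GT n, probT d n T * (1 - UU (xT lam n T))

theorem VG_hasSum (d lam : ℝ) (hd : 0 ≤ d) (h0 : 0 ≤ lam) (h1 : lam < 1) (n : ℕ) :
    HasSum (fun T : GT n => probT d n T * (1 - UU (xT lam n T))) (VG d lam n) :=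
  (summable_probT_mul d hd n _
    (fun T => by linarith [UU_le_one (xT lam n T) (xT_nonneg lam h0 h1 n T)])
    (fun T => by linarith [UU_nonneg (xT lam n T)])).hasSum

theorem VG_zero (d lam : ℝ) : VG d lam 0 = 1 := by
  have hu : Unique (GT 0) := inferInstanceAs (Unique Unit)
  have h := hasSum_unique (fun T : GT 0 => probT d 0 T * (1 - UU (xT lam 0 T)))
  unfold VG
  rw [h.tsum_eq]
  have hx : xT lam 0 default = 1 := baseT_X lam default
  rw [hx]
  have hU : UU 1 = 0 := by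
    unfold UU
    norm_num
  rw [hU]
  simp [probT]

theorem VG_step (d lam : ℝ) (hd : 0 ≤ d) (h0 : 0 ≤ lam) (h1 : lam < 1) (n : ℕ) :
    1 - VG d lam (n + 1) ≤ Real.exp (-(d * lam ^ 2) * VG d lam n) := by
  have hl0 : 0 ≤ lam ^ 2 := sq_nonneg lam
  have hl1 : lam ^ 2 ≤ 1 := by nlinarith
  have hg0 : ∀ s : GT n, 0 ≤ 1 - lam ^ 2 * (1 - UU (xT lam n s)) := by
    intro s
    have a := UU_nonneg (xT lam n s)
    have b := UU_le_one (xT lam n s) (xT_nonneg lam h0 h1 n s)
    nlinarith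
  have e1 : HasSum (fun s : GT n => probT d n s * (1 - lam ^ 2 * (1 - UU (xT lam n s))))
      (1 - lam ^ 2 * VG d lam n) := by
    have := (probT_hasSum d hd n).sub ((VG_hasSum d lam hd h0 h1 n).mul_left (lam ^ 2))
    have he : (fun s : GT n => probT d n s * (1 - lam ^ 2 * (1 - UU (xT lam n s)))) =
        fun s : GT n => probT d n s - lam ^ 2 * (probT d n s * (1 - UU (xT lam n s))) := by
      funext s
      ring
    rw [he]
    exact this
  have e2 := hasSum_sig_gen (fun s : GT n => probT d n s * (1 - lam ^ 2 * (1 - UU (xT lam n s))))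
    (1 - lam ^ 2 * VG d lam n) d hd
    (fun s => mul_nonneg (probT_nonneg d hd n s) (hg0 s)) e1
  have e4 : HasSum (fun T : GT (n + 1) => probT d (n + 1) T * UU (xT lam (n + 1) T))
      (1 - VG d lam (n + 1)) := by
    have := (probT_hasSum d hd (n + 1)).sub (VG_hasSum d lam hd h0 h1 (n + 1))
    have he : (fun T : GT (n + 1) => probT d (n + 1) T * UU (xT lam (n + 1) T)) =
        fun T : GT (n + 1) => probT d (n + 1) T - probT d (n + 1) T * (1 - UU (xT lam (n + 1) T)) := by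
      funext T
      ring
    rw [he]
    exact this
  have hle : ∀ T : GT (n + 1), probT d (n + 1) T * UU (xT lam (n + 1) T) ≤
      pois d T.1 * ∏ j, (probT d n (T.2 j) * (1 - lam ^ 2 * (1 - UU (xT lam n (T.2 j))))) := by
    intro T
    rw [xT_succ lam h0 h1 n T, Finset.prod_mul_distrib]
    change pois d T.1 * (∏ j, probT d n (T.2 j)) * UU (XK lam n T.1 T.2) ≤ _
    rw [mul_assoc]
    refine mul_le_mul_of_nonneg_left ?_ (pois_nonneg d hd _)
    refine mul_le_mul_of_nonneg_left ?_ (Finset.prod_nonneg fun j _ => probT_nonneg d hd n _)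
    refine (XK_UU lam h0 h1 n T.1 T.2).trans ?_
    refine Finset.prod_le_prod (fun j _ => UU_nonneg _) (fun j _ => ?_)
    exact UU_scale (lam ^ 2) (xT lam n (T.2 j)) hl0 hl1 (xT_nonneg lam h0 h1 n _)
  have key := hasSum_le hle e4 e2
  have h6 : -d * (1 - (1 - lam ^ 2 * VG d lam n)) = -(d * lam ^ 2) * VG d lam n := by ring
  rw [h6] at key
  exact key

end Vale.Agent.P154
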