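import Vale.Agent.P154.KS.C1

/-!
# P154, Kesten-Stigum direction on the Poisson Galton-Watson tree, conclusion

With `ρ = d lam^2 > 1`, `δ = (ρ - 1) / ρ`: `VG 0 = 1 ≥ δ`, and `VG n ≥ δ` implies `1 - VG (n+1) ≤ exp (-ρ VG n) ≤ exp (-ρ δ) ≤ 1 / (1 + ρ δ) = 1 / ρ`
(`Real.add_one_le_exp`).  Finally `aT ≥ xT / 2 ≥ (1 - UU xT) / 4` (`aT_ge`, `UU_ge`), sum over trees (`Summable.tsum_le_tsum`, `summable_probT_mul`,
`aT_sq_le`, `VG_hasSum`).
-/

namespace Vale.Agent.P154

open Finset Filter Topology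

theorem VG_low (d lam : ℝ) (hd : 0 ≤ d) (h0 : 0 ≤ lam) (h1 : lam < 1) (h2 : 1 < d * lam ^ 2) (n : ℕ) :
    (d * lam ^ 2 - 1) / (d * lam ^ 2) ≤ VG d lam n := by
  set r : ℝ := d * lam ^ 2 with hr
  have hr0 : 0 < r := lt_trans zero_lt_one h2
  induction n with
  | zero =>
    rw [VG_zero, div_le_one hr0]
    linarith
  | succ n ih =>
    have hstep := VG_step d lam hd h0 h1 n
    rw [← hr] at hstep
    -- `exp (-r * VG n) ≤ exp (-(r - 1))`
    have h3 : r - 1 ≤ r * VG d lam n := by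
      have := mul_le_mul_of_nonneg_left ih hr0.le
      rwa [mul_div_cancel₀ _ hr0.ne'] at this
    have h4 : Real.exp (-r * VG d lam n) ≤ Real.exp (-(r - 1)) := by
      apply Real.exp_le_exp.2
      linarith
    have h5 : r ≤ Real.exp (r - 1) := by
      have := Real.add_one_le_exp (r - 1)
      linarith
    have h6 : Real.exp (-(r - 1)) ≤ 1 / r := by
      rw [Real.exp_neg, ← one_div]
      exact one_div_le_one_div_of_le hr0 h5
    have h7 : (r - 1) / r = 1 - 1 / r := by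
      field_simp
    rw [h7]
    linarith

theorem gw_reconstruction (d lam : ℝ) (hd : 0 < d) (h0 : 0 ≤ lam) (h1 : lam < 1)
    (h2 : 1 < d * lam ^ 2) (n : ℕ) :
    (d * lam ^ 2 - 1) / (4 * (d * lam ^ 2)) ≤ aGW 3 d lam n := by
  have hlow := VG_low d lam hd.le h0 h1 h2 n
  have hV := VG_hasSum d lam hd.le h0 h1 n
  have hr0 : 0 < d * lam ^ 2 := lt_trans zero_lt_one h2
  have haT1 : ∀ T : GT n, aT 3 lam n T ≤ 1 := by
    intro T
    obtain ⟨ha0, ha2⟩ := aT_sq_le lam h0 h1 n T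
    have hx := xT_le_one lam h0 h1 n T
    nlinarith
  have hsumA : Summable (fun T : GT n => probT d n T * aT 3 lam n T) :=
    summable_probT_mul d hd.le n (fun T => aT 3 lam n T)
      (fun T => (aT_sq_le lam h0 h1 n T).1) haT1
  have hsumV : Summable (fun T : GT n => (1 / 4 : ℝ) * (probT d n T * (1 - UU (xT lam n T)))) :=
    hV.summable.mul_left _
  have hle : ∀ T : GT n, (1 / 4 : ℝ) * (probT d n T * (1 - UU (xT lam n T)))
      ≤ probT d n T * aT 3 lam n T := by
    intro T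
    have hp := probT_nonneg d hd.le n T
    have h3 := aT_ge lam h0 h1 n T
    have h4 := UU_ge (xT lam n T)
    have h5 : (1 / 4 : ℝ) * (1 - UU (xT lam n T)) ≤ aT 3 lam n T := by linarith
    calc (1 / 4 : ℝ) * (probT d n T * (1 - UU (xT lam n T)))
        = probT d n T * ((1 / 4 : ℝ) * (1 - UU (xT lam n T))) := by ring
      _ ≤ probT d n T * aT 3 lam n T := mul_le_mul_of_nonneg_left h5 hp
  have hts := Summable.tsum_le_tsum hle hsumV hsumA
  rw [tsum_mul_left, hV.tsum_eq] at hts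
  unfold aGW
  have h8 : (d * lam ^ 2 - 1) / (4 * (d * lam ^ 2))
      = (1 / 4 : ℝ) * ((d * lam ^ 2 - 1) / (d * lam ^ 2)) := by
    field_simp
  rw [h8]
  linarith

end Vale.Agent.P154
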