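import Vale.Agent.P154.GW.Ext2
import Vale.Agent.P154.GW.Reg

/-!
# P154, the noiseless channel `lam = 1` (three colours)

`potts 3 1 i j = 1{i = j}`, so `likT 3 1 (n+1) T i η = ∏ k, likT 3 1 n (T.2 k) i (η k)`; by induction `likT 3 1 n T i η ∈ {0, 1}` and, if the tree
reaches depth `n` (`aliveT n T = 1`), `likT i η * likT j η = 0` for `i ≠ j`.  So for an alive tree every `η` with `margT η ≠ 0` has exactly one `i` with
`likT i η = 1`: `margT η = 1/3`, the posterior is a point mass and the total variation distance to the uniform law is `2/3`; `∑ η, margT η = 1`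
(`margT_sum`).  Hence `aT 3 1 n T = 2/3` on alive trees.
`SG (n+1) = 1 - exp (-d SG n)`, `SG 0 = 1`: for `d > 1`, `SG n ≥ (d - 1) / d` (`exp (-t) ≤ 1 / (1 + t)`).
-/

namespace Vale.Agent.P154

open Finset Filter Topology

theorem potts_one_D1 (i j : Fin 3) : potts 3 1 i j = if i = j then 1 else 0 := by
  unfold potts
  simp

theorem likT_one_succ_D1 (n : ℕ) (T : GT (n + 1)) (i : Fin 3) (η : ConfT 3 (n + 1) T) :
    likT 3 1 (n + 1) T i η = ∏ k : Fin T.1, likT 3 1 n (T.2 k) i (η k) := by
  change ∏ k : Fin T.1, ∑ j : Fin 3, potts 3 1 i j * likT 3 1 n (T.2 k) j (η k) = _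
  refine Finset.prod_congr rfl fun k _ => ?_
  simp [potts_one_D1]

theorem likT_one_01_D1 : ∀ (n : ℕ) (T : GT n) (i : Fin 3) (η : ConfT 3 n T),
    likT 3 1 n T i η = 0 ∨ likT 3 1 n T i η = 1
  | 0, _, i, η => by
    change (if (show Fin 3 from η) = i then (1 : ℝ) else 0) = 0 ∨
      (if (show Fin 3 from η) = i then (1 : ℝ) else 0) = 1
    split_ifs <;> simp
  | n + 1, T, i, η => by
    rw [likT_one_succ_D1]
    by_cases h : ∀ k, likT 3 1 n (T.2 k) i (η k) = 1
    · right
      exact Finset.prod_eq_one fun k _ => h k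
    · left
      push Not at h
      obtain ⟨k, hk⟩ := h
      exact Finset.prod_eq_zero (Finset.mem_univ k)
        ((likT_one_01_D1 n (T.2 k) i (η k)).resolve_right hk)

theorem aliveT_succ_one_D1 (n : ℕ) (T : GT (n + 1)) (h : aliveT (n + 1) T = 1) :
    ∃ k : Fin T.1, aliveT n (T.2 k) = 1 := by
  by_contra hcon
  push Not at hcon
  have h0 : ∀ k : Fin T.1, aliveT n (T.2 k) = 0 := fun k =>
    (aliveT_zero_or_one n (T.2 k)).resolve_right (hcon k)
  have h2 : 1 - ∏ j : Fin T.1, (1 - aliveT n (T.2 j)) = 1 := h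
  rw [Finset.prod_eq_one (fun j _ => by rw [h0 j, sub_zero])] at h2
  norm_num at h2

theorem likT_one_disj_D1 : ∀ (n : ℕ) (T : GT n), aliveT n T = 1 → ∀ (i j : Fin 3), i ≠ j →
    ∀ η : ConfT 3 n T, likT 3 1 n T i η * likT 3 1 n T j η = 0
  | 0, _, _, i, j, hij, η => by
    change (if (show Fin 3 from η) = i then (1 : ℝ) else 0) *
      (if (show Fin 3 from η) = j then (1 : ℝ) else 0) = 0
    by_cases h1 : (show Fin 3 from η) = i
    · have h2 : ¬ (show Fin 3 from η) = j := fun h2 => hij (h1.symm.trans h2)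
      rw [if_neg h2, mul_zero]
    · rw [if_neg h1, zero_mul]
  | n + 1, T, h, i, j, hij, η => by
    obtain ⟨k, hk⟩ := aliveT_succ_one_D1 n T h
    rw [likT_one_succ_D1, likT_one_succ_D1, ← Finset.prod_mul_distrib]
    exact Finset.prod_eq_zero (Finset.mem_univ k) (likT_one_disj_D1 n (T.2 k) hk i j hij (η k))

theorem aT_one_alive (n : ℕ) (T : GT n) (h : aliveT n T = 1) : aT 3 1 n T = 2 / 3 := by
  have key : ∀ η : ConfT 3 n T,
      margT 3 1 n T η * ((1 / 2) * ∑ i : Fin 3, |postT 3 1 n T i η - 1 / ((3 : ℕ) : ℝ)|)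
        = 2 / 3 * margT 3 1 n T η := by
    intro η
    have h01 := likT_one_disj_D1 n T h 0 1 (by decide) η
    have h02 := likT_one_disj_D1 n T h 0 2 (by decide) η
    have h12 := likT_one_disj_D1 n T h 1 2 (by decide) η
    unfold postT margT
    rw [Fin.sum_univ_three, Fin.sum_univ_three]
    rcases likT_one_01_D1 n T 0 η with a | a <;> rcases likT_one_01_D1 n T 1 η with b | b <;>
      rcases likT_one_01_D1 n T 2 η with c | c <;> rw [a, b] at h01 <;> rw [a, c] at h02 <;>
      rw [b, c] at h12 <;> rw [a, b, c] <;>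
      first
      | (norm_num at h01; done)
      | (norm_num at h02; done)
      | (norm_num at h12; done)
      | norm_num
  unfold aT
  rw [Finset.sum_congr rfl (fun η _ => key η), ← Finset.mul_sum, margT_sum 3 (by norm_num) 1 n T,
    mul_one]

end Vale.Agent.P154
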