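import Vale.Agent.P154.KS.D1

/-!
# P154, the noiseless channel `lam = 1` (three colours): conclusion
-/

namespace Vale.Agent.P154

open Finset Filter Topology

theorem aliveT_regT (d : ℕ) (hd : 1 ≤ d) (n : ℕ) : aliveT n (regT d n) = 1 := by
  induction n with
  | zero => rfl
  | succ n ih =>
    change 1 - ∏ _j : Fin d, (1 - aliveT n (regT d n)) = 1
    rw [ih, sub_self, Finset.prod_const, Finset.card_univ, Fintype.card_fin,
      zero_pow (by omega), sub_zero]

theorem reg_one (d : ℕ) (hd : 1 ≤ d) (n : ℕ) : aTV 3 d 1 n = 2 / 3 := by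
  rw [← aT_regT]
  exact aT_one_alive n _ (aliveT_regT d hd n)

theorem SG_zero' (d : ℝ) : SG d 0 = 1 := by
  unfold SG
  have h : (fun T : GT 0 => probT d 0 T * aliveT 0 T) = fun _ => (1 : ℝ) := by
    funext T
    change (1 : ℝ) * 1 = 1
    norm_num
  rw [h]
  change ∑' _T : Unit, (1 : ℝ) = 1
  rw [tsum_fintype]
  simp

theorem SG_low (d : ℝ) (hd : 1 < d) (n : ℕ) : (d - 1) / d ≤ SG d n := by
  have hd0 : 0 < d := by linarith
  induction n with
  | zero =>
    rw [SG_zero', div_le_one hd0]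
    linarith
  | succ n ih =>
    rw [SG_succ d hd0.le n]
    have h1 : d - 1 ≤ d * SG d n := by
      have := mul_le_mul_of_nonneg_left ih hd0.le
      rwa [mul_div_cancel₀ _ hd0.ne'] at this
    have h2 : Real.exp (-d * SG d n) ≤ Real.exp (-(d - 1)) := by
      apply Real.exp_le_exp.2
      linarith
    have h3 : Real.exp (-(d - 1)) ≤ 1 / d := by
      rw [Real.exp_neg, ← one_div]
      apply one_div_le_one_div_of_le hd0
      have := Real.add_one_le_exp (d - 1)
      linarith
    have h4 : (d - 1) / d = 1 - 1 / d := by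
      field_simp
    rw [h4]
    linarith

theorem aT_one_eq (n : ℕ) (T : GT n) : aT 3 1 n T = 2 / 3 * aliveT n T := by
  rcases aliveT_zero_or_one n T with h | h
  · rw [aT_dead 3 (by norm_num) 1 n T h, h, mul_zero]
  · rw [aT_one_alive n T h, h, mul_one]

/-- `aT 3 1 n T = 2/3 * aliveT n T` (`aT_one_alive`, `aT_dead`), so `aGW 3 d 1 n = 2/3 * SG d n`. -/
theorem gw_one (d : ℝ) (hd : 1 < d) (n : ℕ) : 2 / 3 * ((d - 1) / d) ≤ aGW 3 d 1 n := by
  have h : aGW 3 d 1 n = 2 / 3 * SG d n := by
    unfold aGW SG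
    rw [← tsum_mul_left]
    refine tsum_congr fun T => ?_
    rw [aT_one_eq]
    ring
  rw [h]
  exact mul_le_mul_of_nonneg_left (SG_low d hd n) (by norm_num)

end Vale.Agent.P154
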