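import Vale.Agent.P154.GW.Ext

/-!
# P154: `aT` without division, continuity in `lam`

`bT q lam n T = ∑ η, (1/2) ∑ i, |likT i η / q - margT η / q|`.  If the channel is nonnegative then `aT = bT`: for `margT η > 0`,
`margT η * |postT i η - 1/q| = |margT η * postT i η - margT η / q| = |likT i η / q - margT η / q|`; for `margT η = 0` all `likT i η` vanish
(`likT_nonneg`, a sum of nonnegative terms is zero) and both sides are `0`.
`likT q lam n T i η` is a polynomial in `lam`, hence continuous (induction on `n`, `continuous_finset_prod`, `continuous_finset_sum`).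
-/

namespace Vale.Agent.P154

open Finset Filter Topology

noncomputable def bT (q : ℕ) (lam : ℝ) (n : ℕ) (T : GT n) : ℝ :=
  ∑ η : ConfT q n T, (1 / 2) * ∑ i : Fin q,
    |(1 / (q : ℝ)) * likT q lam n T i η - (1 / (q : ℝ)) * margT q lam n T η|

theorem aT_eq_bT (q : ℕ) (hq : 0 < q) (lam : ℝ) (hp : ∀ i j : Fin q, 0 ≤ potts q lam i j) (n : ℕ)
    (T : GT n) : aT q lam n T = bT q lam n T := by
  unfold aT bT
  refine Finset.sum_congr rfl fun η _ => ?_
  have hq' : (0 : ℝ) < q := by exact_mod_cast hq
  have hm0 : 0 ≤ margT q lam n T η := by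
    unfold margT
    exact Finset.sum_nonneg fun i _ =>
      mul_nonneg (by positivity) (likT_nonneg q lam hp n T i η)
  rw [mul_left_comm, Finset.mul_sum]
  congr 1
  refine Finset.sum_congr rfl fun i _ => ?_
  rcases hm0.eq_or_lt with hm | hm
  · -- all likelihoods vanish
    have hz : ∀ j : Fin q, (1 / (q : ℝ)) * likT q lam n T j η = 0 := by
      have hs : ∑ j : Fin q, (1 / (q : ℝ)) * likT q lam n T j η = 0 := hm.symm
      have := (Finset.sum_eq_zero_iff_of_nonneg (fun j _ =>
        mul_nonneg (by positivity : (0 : ℝ) ≤ 1 / (q : ℝ)) (likT_nonneg q lam hp n T j η))).mp hs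
      intro j
      exact this j (Finset.mem_univ j)
    rw [← hm, hz i]
    simp
  · rw [← abs_of_pos hm, ← abs_mul, abs_of_pos hm]
    congr 1
    unfold postT
    field_simp

theorem likT_continuous (q : ℕ) : ∀ (n : ℕ) (T : GT n) (i : Fin q) (η : ConfT q n T),
    Continuous (fun lam : ℝ => likT q lam n T i η)
  | 0, _, i, η => by
    change Continuous (fun _ : ℝ => if (show Fin q from η) = i then (1 : ℝ) else 0)
    exact continuous_const
  | n + 1, T, i, η => by
    change Continuous (fun lam : ℝ =>
      ∏ k : Fin T.1, ∑ j : Fin q, potts q lam i j * likT q lam n (T.2 k) j (η k))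
    refine continuous_finset_prod _ fun k _ => continuous_finset_sum _ fun j _ => ?_
    refine Continuous.mul ?_ (likT_continuous q n (T.2 k) j (η k))
    unfold potts
    fun_prop

theorem bT_continuous (q : ℕ) (n : ℕ) (T : GT n) : Continuous (fun lam : ℝ => bT q lam n T) := by
  unfold bT
  refine continuous_finset_sum _ fun η _ => continuous_const.mul
    (continuous_finset_sum _ fun i _ => ?_)
  refine Continuous.abs (Continuous.sub (continuous_const.mul (likT_continuous q n T i η)) ?_)
  refine continuous_const.mul ?_
  unfold margT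
  exact continuous_finset_sum _ fun j _ => continuous_const.mul (likT_continuous q n T j η)

end Vale.Agent.P154
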