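import Vale.Agent.P154.KS.B
import Vale.Agent.P154.KS.C2
import Vale.Agent.P154.AF.MainK

/-!
# P154, Kesten-Stigum direction for `-1/2 < lam ≤ 0` (three colours), both tree models

`prodH_all`, `treeT_goodH`: the experiments attached to fixed trees are `Good` (no invariant is needed for the lower bounds).
The rest: copies of the proofs of `KS/A1.lean`, ..., `KS/C2.lean`.
-/

namespace Vale.Agent.P154

open Finset Filter Topology

theorem prodH_all : ∀ (k : ℕ) (F : Fin k → Type) [∀ j, Fintype (F j)] (W : ∀ j, F j → ℝ)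
    (E : ∀ j, F j → Fin 3 → ℝ), (∀ j, Good (W j) (E j)) → (∀ j η i, -1 < E j η i) →
    Good (wD W E) (eD E) := by
  intro k
  induction k with
  | zero =>
    intro F _ W E _ _
    exact (prodD_zero W E).1
  | succ k ih =>
    intro F _ W E h hs
    have g := ih (fun j => F j.succ) (fun j => W j.succ) (fun j => E j.succ)
      (fun j => h j.succ) (fun j => hs j.succ)
    have hw : wD W E = fun η => wMW (W 0) (E 0) (wD (fun j : Fin k => W j.succ)
        (fun j : Fin k => E j.succ)) (eD (fun j : Fin k => E j.succ)) (cE F η) :=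
      funext (wD_succ W E h hs)
    have he : eD E = fun η => eMW (E 0) (eD (fun j : Fin k => E j.succ)) (cE F η) :=
      funext (eD_succ W E h hs)
    rw [hw, he]
    exact Good.of_equiv (cE F) (Good.mergeW (h 0) (hs 0) g)

theorem treeT_goodH (lam : ℝ) (h0 : -1 / 2 < lam) (h1 : lam ≤ 0) (n : ℕ) (T : GT n) :
    Good (margT 3 lam n T) (evT lam n T) := by
  induction n with
  | zero => exact baseT_good lam T
  | succ n ih =>
    have hg : ∀ j, Good (margT 3 lam n (T.2 j)) (evT lam n (T.2 j)) := fun j => ih (T.2 j)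
    rw [margT_succ lam n T hg, evT_succN lam h0 h1 n T hg]
    exact prodH_all T.1 (fun j => ConfT 3 n (T.2 j)) (fun j => margT 3 lam n (T.2 j))
      (fun j ξ i => lam * evT lam n (T.2 j) ξ i) (fun j => (hg j).scaleN lam h0.le h1)
      (fun j η i => (hg j).scaleN_strict lam h0 h1 η i)

theorem xT_succH (lam : ℝ) (h0 : -1 / 2 < lam) (h1 : lam ≤ 0) (n : ℕ) (T : GT (n + 1)) :
    xT lam (n + 1) T = XK lam n T.1 T.2 := by
  have hg : ∀ j, Good (margT 3 lam n (T.2 j)) (evT lam n (T.2 j)) :=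
    fun j => treeT_goodH lam h0 h1 n (T.2 j)
  unfold xT XK
  rw [margT_succ lam n T hg, evT_succN lam h0 h1 n T hg]
  rfl

theorem xT_nonnegH (lam : ℝ) (h0 : -1 / 2 < lam) (h1 : lam ≤ 0) (n : ℕ) (T : GT n) :
    0 ≤ xT lam n T :=
  (treeT_goodH lam h0 h1 n T).Xf_nonneg

theorem xT_le_oneH (lam : ℝ) (h0 : -1 / 2 < lam) (h1 : lam ≤ 0) (n : ℕ) (T : GT n) :
    xT lam n T ≤ 1 :=
  (treeT_goodH lam h0 h1 n T).Xf_le_oneW

theorem aT_sq_leH (lam : ℝ) (h0 : -1 / 2 < lam) (h1 : lam ≤ 0) (n : ℕ) (T : GT n) :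
    0 ≤ aT 3 lam n T ∧ aT 3 lam n T ^ 2 ≤ xT lam n T / 2 := by
  have hg := treeT_goodH lam h0 h1 n T
  rw [aT_eq]
  refine ⟨?_, hg.tv_sq_le⟩
  refine Finset.sum_nonneg fun η _ => mul_nonneg (hg.pos η).le ?_
  positivity

/-- `aT_eq`, `treeT_good`, `Good.tv_ge`. -/
theorem aT_geH (lam : ℝ) (h0 : -1 / 2 < lam) (h1 : lam ≤ 0) (n : ℕ) (T : GT n) :
    xT lam n T / 2 ≤ aT 3 lam n T := by
  rw [aT_eq]
  exact (treeT_goodH lam h0 h1 n T).tv_ge

/-- as `prodD_step`, with `merge_X_low` and `merge_X_mono` instead of `merge_X`. -/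
theorem prodD_lowH {k : ℕ} {F : Fin (k + 1) → Type} [∀ j, Fintype (F j)] (W : ∀ j, F j → ℝ)
    (E : ∀ j, F j → Fin 3 → ℝ) (h : ∀ j, Good (W j) (E j)) (hs : ∀ j η i, -1 < E j η i)
 :
    UU (Xf (wD W E) (eD E)) ≤ UU (Xf (W 0) (E 0))
      * UU (Xf (wD (fun j : Fin k => W j.succ) (fun j : Fin k => E j.succ)) (eD (fun j : Fin k => E j.succ))) := by
  have g := prodH_all k (fun j => F j.succ) (fun j => W j.succ) (fun j => E j.succ)
    (fun j => h j.succ) (fun j => hs j.succ)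
  have hw : wD W E = fun η => wMW (W 0) (E 0) (wD (fun j : Fin k => W j.succ)
      (fun j : Fin k => E j.succ)) (eD (fun j : Fin k => E j.succ)) (cE F η) :=
    funext (wD_succ W E h hs)
  have he : eD E = fun η => eMW (E 0) (eD (fun j : Fin k => E j.succ)) (cE F η) :=
    funext (eD_succ W E h hs)
  rw [hw, he, Xf_equiv (cE F)]
  exact UU_merge _ _ _ (merge_X_low (h 0) (hs 0) g) (merge_X_mono (h 0) (hs 0) g)

/-- as `XK_succ`, with `prodD_lowH`. -/
theorem XK_succ_UUH (lam : ℝ) (h0 : -1 / 2 < lam) (h1 : lam ≤ 0) (n k : ℕ) (c : Fin (k + 1) → GT n) :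
    UU (XK lam n (k + 1) c) ≤ UU (lam ^ 2 * xT lam n (c 0)) * UU (XK lam n k (Fin.tail c)) := by
  have hst := prodD_lowH (F := fun j => ConfT 3 n (c j)) (fun j => margT 3 lam n (c j))
    (fun j ξ i => lam * evT lam n (c j) ξ i)
    (fun j => (treeT_goodH lam h0 h1 n (c j)).scaleN lam h0.le h1)
    (fun j η i => (treeT_goodH lam h0 h1 n (c j)).scaleN_strict lam h0 h1 η i)
  have hsc : Xf (margT 3 lam n (c 0)) (fun ξ i => lam * evT lam n (c 0) ξ i)
      = lam ^ 2 * xT lam n (c 0) := Xf_scale _ _ lam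
  rw [hsc] at hst
  exact hst

/-- induction on `k` (`XK_zero`, `Fin.prod_univ_succ`). -/
theorem XK_UUH (lam : ℝ) (h0 : -1 / 2 < lam) (h1 : lam ≤ 0) (n k : ℕ) (c : Fin k → GT n) :
    UU (XK lam n k c) ≤ ∏ j, UU (lam ^ 2 * xT lam n (c j)) := by
  induction k with
  | zero =>
    rw [XK_zero]
    simp [UU]
  | succ k ih =>
    rw [Fin.prod_univ_succ]
    refine (XK_succ_UUH lam h0 h1 n k c).trans ?_
    exact mul_le_mul_of_nonneg_left (ih (Fin.tail c)) (UU_nonneg _)

/-- `xT_succH`, `XK_UUH`, `Finset.prod_const`. -/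
theorem xreg_UUH (d : ℕ) (lam : ℝ) (h0 : -1 / 2 < lam) (h1 : lam ≤ 0) (n : ℕ) :
    UU (xT lam (n + 1) (regT d (n + 1))) ≤ UU (lam ^ 2 * xT lam n (regT d n)) ^ d := by
  rw [xT_succH lam h0 h1 n (regT d (n + 1))]
  have h := XK_UUH lam h0 h1 n d (fun _ => regT d n)
  rw [Finset.prod_const, Finset.card_univ, Fintype.card_fin] at h
  exact h

/-- `seq_low`, `baseT_X`, `aT_geH`, `aT_regT`. -/
theorem reg_reconstructionH (d : ℕ) (lam : ℝ) (h0 : -1 / 2 < lam) (h1 : lam ≤ 0)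
    (h2 : 1 < (d : ℝ) * lam ^ 2) (n : ℕ) :
    ((d : ℝ) * lam ^ 2 - 1) / (4 * ((d : ℝ) * lam ^ 2)) ≤ aTV 3 d lam n := by
  have hs1 : lam ^ 2 ≤ 1 := by nlinarith
  have hx := seq_low d (lam ^ 2) (fun n => xT lam n (regT d n)) (sq_nonneg lam) hs1 h2
    (baseT_X lam (regT d 0)) (fun n => xreg_UUH d lam h0 h1 n) n
  have ha := aT_geH lam h0 h1 n (regT d n)
  rw [aT_regT] at ha
  have he : ((d : ℝ) * lam ^ 2 - 1) / (4 * ((d : ℝ) * lam ^ 2))
      = ((d : ℝ) * lam ^ 2 - 1) / (2 * ((d : ℝ) * lam ^ 2)) / 2 := by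
    rw [div_div]; ring_nf
  rw [he]
  linarith

theorem VG_hasSumH (d lam : ℝ) (hd : 0 ≤ d) (h0 : -1 / 2 < lam) (h1 : lam ≤ 0) (n : ℕ) :
    HasSum (fun T : GT n => probT d n T * (1 - UU (xT lam n T))) (VG d lam n) :=
  (summable_probT_mul d hd n _
    (fun T => by linarith [UU_le_one (xT lam n T) (xT_nonnegH lam h0 h1 n T)])
    (fun T => by linarith [UU_nonneg (xT lam n T)])).hasSum

theorem VG_stepH (d lam : ℝ) (hd : 0 ≤ d) (h0 : -1 / 2 < lam) (h1 : lam ≤ 0) (n : ℕ) :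
    1 - VG d lam (n + 1) ≤ Real.exp (-(d * lam ^ 2) * VG d lam n) := by
  have hl0 : 0 ≤ lam ^ 2 := sq_nonneg lam
  have hl1 : lam ^ 2 ≤ 1 := by nlinarith
  have hg0 : ∀ s : GT n, 0 ≤ 1 - lam ^ 2 * (1 - UU (xT lam n s)) := by
    intro s
    have a := UU_nonneg (xT lam n s)
    have b := UU_le_one (xT lam n s) (xT_nonnegH lam h0 h1 n s)
    nlinarith
  have e1 : HasSum (fun s : GT n => probT d n s * (1 - lam ^ 2 * (1 - UU (xT lam n s))))
      (1 - lam ^ 2 * VG d lam n) := by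
    have := (probT_hasSum d hd n).sub ((VG_hasSumH d lam hd h0 h1 n).mul_left (lam ^ 2))
    have he : (fun s : GT n => probT d n s * (1 - lam ^ 2 * (1 - UU (xT lam n s)))) =
        fun s : GT n => probT d n s - lam ^ 2 * (probT d n s * (1 - UU (xT lam n s))) := by
      funext s
      ring
    rw [he]
    exact this
  have e2 := hasSum_sig_gen (fun s : GT n => probT d n s * (1 - lam ^ 2 * (1 - UU (xT lam n s))))
    (1 - lam ^ 2 * VG d lam n) d hd
    (fun s => mul_nonneg (probT_nonneg d hd n s) (hg0 s)) e1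
  have e4 : HasSum (fun T : GT (n + 1) => probT d (n + 1) T * UU (xT lam (n + 1) T))
      (1 - VG d lam (n + 1)) := by
    have := (probT_hasSum d hd (n + 1)).sub (VG_hasSumH d lam hd h0 h1 (n + 1))
    have he : (fun T : GT (n + 1) => probT d (n + 1) T * UU (xT lam (n + 1) T)) =
        fun T : GT (n + 1) => probT d (n + 1) T - probT d (n + 1) T * (1 - UU (xT lam (n + 1) T)) := by
      funext T
      ring
    rw [he]
    exact this
  have hle : ∀ T : GT (n + 1), probT d (n + 1) T * UU (xT lam (n + 1) T) ≤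
      pois d T.1 * ∏ j, (probT d n (T.2 j) * (1 - lam ^ 2 * (1 - UU (xT lam n (T.2 j))))) := by
    intro T
    rw [xT_succH lam h0 h1 n T, Finset.prod_mul_distrib]
    change pois d T.1 * (∏ j, probT d n (T.2 j)) * UU (XK lam n T.1 T.2) ≤ _
    rw [mul_assoc]
    refine mul_le_mul_of_nonneg_left ?_ (pois_nonneg d hd _)
    refine mul_le_mul_of_nonneg_left ?_ (Finset.prod_nonneg fun j _ => probT_nonneg d hd n _)
    refine (XK_UUH lam h0 h1 n T.1 T.2).trans ?_
    refine Finset.prod_le_prod (fun j _ => UU_nonneg _) (fun j _ => ?_)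
    exact UU_scale (lam ^ 2) (xT lam n (T.2 j)) hl0 hl1 (xT_nonnegH lam h0 h1 n _)
  have key := hasSum_le hle e4 e2
  have h6 : -d * (1 - (1 - lam ^ 2 * VG d lam n)) = -(d * lam ^ 2) * VG d lam n := by ring
  rw [h6] at key
  exact key

theorem VG_lowH (d lam : ℝ) (hd : 0 ≤ d) (h0 : -1 / 2 < lam) (h1 : lam ≤ 0) (h2 : 1 < d * lam ^ 2) (n : ℕ) :
    (d * lam ^ 2 - 1) / (d * lam ^ 2) ≤ VG d lam n := by
  set r : ℝ := d * lam ^ 2 with hr
  have hr0 : 0 < r := lt_trans zero_lt_one h2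
  induction n with
  | zero =>
    rw [VG_zero, div_le_one hr0]
    linarith
  | succ n ih =>
    have hstep := VG_stepH d lam hd h0 h1 n
    rw [← hr] at hstep
    -- `exp (-r * VG n) ≤ exp (-(r - 1))`
    have h3 : r - 1 ≤ r * VG d lam n := by
      have := mul_le_mul_of_nonneg_left ih hr0.le
      rwa [mul_div_cancel₀ _ hr0.ne'] at this
    have h4 : Real.exp (-r * VG d lam n) ≤ Real.exp (-(r - 1)) := by
      apply Real.exp_le_exp.2
      linarith
    have h5 : r ≤ Real.exp (r - 1) := by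
      have := Real.add_one_le_exp (r - 1)
      linarith
    have h6 : Real.exp (-(r - 1)) ≤ 1 / r := by
      rw [Real.exp_neg, ← one_div]
      exact one_div_le_one_div_of_le hr0 h5
    have h7 : (r - 1) / r = 1 - 1 / r := by
      field_simp
    rw [h7]
    linarith

theorem gw_reconstructionH (d lam : ℝ) (hd : 0 < d) (h0 : -1 / 2 < lam) (h1 : lam ≤ 0)
    (h2 : 1 < d * lam ^ 2) (n : ℕ) :
    (d * lam ^ 2 - 1) / (4 * (d * lam ^ 2)) ≤ aGW 3 d lam n := by
  have hlow := VG_lowH d lam hd.le h0 h1 h2 n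
  have hV := VG_hasSumH d lam hd.le h0 h1 n
  have hr0 : 0 < d * lam ^ 2 := lt_trans zero_lt_one h2
  have haT1 : ∀ T : GT n, aT 3 lam n T ≤ 1 := by
    intro T
    obtain ⟨ha0, ha2⟩ := aT_sq_leH lam h0 h1 n T
    have hx := xT_le_oneH lam h0 h1 n T
    nlinarith
  have hsumA : Summable (fun T : GT n => probT d n T * aT 3 lam n T) :=
    summable_probT_mul d hd.le n (fun T => aT 3 lam n T)
      (fun T => (aT_sq_leH lam h0 h1 n T).1) haT1
  have hsumV : Summable (fun T : GT n => (1 / 4 : ℝ) * (probT d n T * (1 - UU (xT lam n T)))) :=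
    hV.summable.mul_left _
  have hle : ∀ T : GT n, (1 / 4 : ℝ) * (probT d n T * (1 - UU (xT lam n T)))
      ≤ probT d n T * aT 3 lam n T := by
    intro T
    have hp := probT_nonneg d hd.le n T
    have h3 := aT_geH lam h0 h1 n T
    have h4 := UU_ge (xT lam n T)
    have h5 : (1 / 4 : ℝ) * (1 - UU (xT lam n T)) ≤ aT 3 lam n T := by linarith
    calc (1 / 4 : ℝ) * (probT d n T * (1 - UU (xT lam n T)))
        = probT d n T * ((1 / 4 : ℝ) * (1 - UU (xT lam n T))) := by ring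
      _ ≤ probT d n T * aT 3 lam n T := mul_le_mul_of_nonneg_left h5 hp
  have hts := Summable.tsum_le_tsum hle hsumV hsumA
  rw [tsum_mul_left, hV.tsum_eq] at hts
  unfold aGW
  have h8 : (d * lam ^ 2 - 1) / (4 * (d * lam ^ 2))
      = (1 / 4 : ℝ) * ((d * lam ^ 2 - 1) / (d * lam ^ 2)) := by
    field_simp
  rw [h8]
  linarith

end Vale.Agent.P154
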