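import Vale.Agent.P154.KS.End1
import Vale.Agent.P154.KS.H

/-!
# P154, Kesten-Stigum direction at the end point `lam = -1/2` (proper colourings), by continuity in `lam`

For `-1/2 < lam ≤ 0` with `d lam^2 > 1` we know `c lam := (d lam^2 - 1) / (4 d lam^2) ≤ a_n lam` (`reg_reconstructionH`, `gw_reconstructionH`).
For fixed `n`, `a_n` is continuous on `[-1/2, 0]`:
* regular tree: `aTV 3 d lam n = aT 3 lam n (regT d n) = bT 3 lam n (regT d n)` (`aT_regT`, `aT_eq_bT`, `bT_continuous`);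
* Galton-Watson: `aGW 3 d lam n = ∑' T, probT d n T * bT 3 lam n T`, `continuousOn_tsum` with the summable bound `probT d n T`
  (`0 ≤ bT = aT ≤ 1` by `aT_nonneg'`, `aT_le_one`).
`c` is continuous at `-1/2`.  Let `lam → -1/2` from the right (`ge_of_tendsto` / `le_of_tendsto_of_tendsto` along `nhdsWithin (-1/2) (Set.Ioi (-1/2))`;
near `-1/2` one still has `d lam^2 > 1`).
`potts 3 lam i j ≥ 0` for `-1/2 ≤ lam ≤ 1`.
-/

namespace Vale.Agent.P154

open Finset Filter Topology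

theorem potts3_nonneg (lam : ℝ) (h0 : -1 / 2 ≤ lam) (h1 : lam ≤ 1) (i j : Fin 3) :
    0 ≤ potts 3 lam i j := by
  unfold potts
  have e : ((3 : ℕ) : ℝ) = 3 := by norm_num
  rw [e]
  split_ifs <;> linarith

/-- Passage to the limit `lam → -1/2` from the right. -/
theorem end_limit_aux (D : ℝ) (h2 : 1 < D * (-1 / 2 : ℝ) ^ 2) (f : ℝ → ℝ)
    (hf : ContinuousOn f (Set.Icc (-1 / 2 : ℝ) 0))
    (hle : ∀ lam : ℝ, -1 / 2 < lam → lam ≤ 0 → 1 < D * lam ^ 2 →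
      (D * lam ^ 2 - 1) / (4 * (D * lam ^ 2)) ≤ f lam) :
    (D * (-1 / 2 : ℝ) ^ 2 - 1) / (4 * (D * (-1 / 2 : ℝ) ^ 2)) ≤ f (-1 / 2) := by
  have hab : (-1 / 2 : ℝ) < 0 := by norm_num
  have hmem : (-1 / 2 : ℝ) ∈ Set.Icc (-1 / 2 : ℝ) 0 := ⟨le_refl _, hab.le⟩
  have hcD : Continuous (fun lam : ℝ => D * lam ^ 2) := by fun_prop
  have hne : 4 * (D * (-1 / 2 : ℝ) ^ 2) ≠ 0 := by
    have : 0 < D * (-1 / 2 : ℝ) ^ 2 := lt_trans zero_lt_one h2
    positivity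
  have hc : ContinuousAt (fun lam : ℝ => (D * lam ^ 2 - 1) / (4 * (D * lam ^ 2))) (-1 / 2) := by
    refine ContinuousAt.div ?_ ?_ hne
    · exact (hcD.sub continuous_const).continuousAt
    · exact (continuous_const.mul hcD).continuousAt
  have t1 : Tendsto (fun lam : ℝ => (D * lam ^ 2 - 1) / (4 * (D * lam ^ 2)))
      (𝓝[>] (-1 / 2 : ℝ)) (𝓝 ((D * (-1 / 2 : ℝ) ^ 2 - 1) / (4 * (D * (-1 / 2 : ℝ) ^ 2)))) :=
    hc.tendsto.mono_left nhdsWithin_le_nhds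
  have t2 : Tendsto f (𝓝[>] (-1 / 2 : ℝ)) (𝓝 (f (-1 / 2))) := by
    have h := (hf (-1 / 2) hmem).mono (Set.Ioc_subset_Icc_self)
    have h' : Tendsto f (𝓝[Set.Ioc (-1 / 2 : ℝ) 0] (-1 / 2 : ℝ)) (𝓝 (f (-1 / 2))) := h
    rwa [nhdsWithin_Ioc_eq_nhdsGT hab] at h'
  have e1 : ∀ᶠ lam : ℝ in 𝓝[>] (-1 / 2 : ℝ), lam ∈ Set.Ioc (-1 / 2 : ℝ) 0 := Ioc_mem_nhdsGT hab
  have e2 : ∀ᶠ lam : ℝ in 𝓝[>] (-1 / 2 : ℝ), 1 < D * lam ^ 2 := by
    have h := (hcD.tendsto (-1 / 2)).eventually (lt_mem_nhds h2)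
    exact h.filter_mono nhdsWithin_le_nhds
  refine le_of_tendsto_of_tendsto t1 t2 ?_
  filter_upwards [e1, e2] with lam h1 h3
  exact hle lam h1.1 h1.2 h3

theorem reg_reconstructionE (d : ℕ) (h2 : 1 < (d : ℝ) * (-1 / 2 : ℝ) ^ 2) (n : ℕ) :
    ((d : ℝ) * (-1 / 2 : ℝ) ^ 2 - 1) / (4 * ((d : ℝ) * (-1 / 2 : ℝ) ^ 2)) ≤ aTV 3 d (-1 / 2) n := by
  refine end_limit_aux (d : ℝ) h2 (fun lam => aTV 3 d lam n) ?_
    (fun lam h0 h1 h3 => reg_reconstructionH d lam h0 h1 h3 n)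
  refine (bT_continuous 3 n (regT d n)).continuousOn.congr ?_
  intro lam hl
  show aTV 3 d lam n = bT 3 lam n (regT d n)
  rw [← aT_regT]
  exact aT_eq_bT 3 (by norm_num) lam (potts3_nonneg lam hl.1 (by linarith [hl.2])) n (regT d n)

theorem gw_reconstructionE (d : ℝ) (hd : 0 < d) (h2 : 1 < d * (-1 / 2 : ℝ) ^ 2) (n : ℕ) :
    (d * (-1 / 2 : ℝ) ^ 2 - 1) / (4 * (d * (-1 / 2 : ℝ) ^ 2)) ≤ aGW 3 d (-1 / 2) n := by
  refine end_limit_aux d h2 (fun lam => aGW 3 d lam n) ?_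
    (fun lam h0 h1 h3 => gw_reconstructionH d lam hd h0 h1 h3 n)
  have hcont : ContinuousOn (fun lam : ℝ => ∑' T : GT n, probT d n T * bT 3 lam n T)
      (Set.Icc (-1 / 2 : ℝ) 0) := by
    refine continuousOn_tsum (u := probT d n) (fun T => ?_) (probT_hasSum d hd.le n).summable ?_
    · exact (continuous_const.mul (bT_continuous 3 n T)).continuousOn
    · intro T lam hl
      have hp := potts3_nonneg lam hl.1 (by linarith [hl.2])
      have hb := aT_eq_bT 3 (by norm_num) lam hp n T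
      have h0 := aT_nonneg' 3 lam hp n T
      have h1 := aT_le_one 3 (by norm_num) lam hp n T
      have hP := probT_nonneg d hd.le n T
      rw [← hb, Real.norm_eq_abs, abs_of_nonneg (mul_nonneg hP h0)]
      calc probT d n T * aT 3 lam n T ≤ probT d n T * 1 := mul_le_mul_of_nonneg_left h1 hP
        _ = probT d n T := mul_one _
  refine hcont.congr ?_
  intro lam hl
  show aGW 3 d lam n = ∑' T : GT n, probT d n T * bT 3 lam n T
  unfold aGW
  refine tsum_congr fun T => ?_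
  rw [aT_eq_bT 3 (by norm_num) lam (potts3_nonneg lam hl.1 (by linarith [hl.2])) n T]

end Vale.Agent.P154
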