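import Vale.Agent.P154.GW.Reg
import Vale.Agent.P154.GW.Ext2
import Vale.Agent.P154.KS.B
import Vale.Agent.P154.KS.C2
import Vale.Agent.P154.KS.D2

/-!
# P154: three-state Potts channel, `0 ≤ lam ≤ 1`: the reconstruction threshold is exactly Kesten-Stigum, on both tree models, for every `d`

For `q = 3` and every `0 ≤ lam ≤ 1` the quantity `a_n` of the problem file tends to zero if and only if `d * lam ^ 2 ≤ 1`
* on the rooted `d`-ary tree, for every integer `d ≥ 2`;
* on the Galton-Watson tree with independent Poisson(`d`) offspring numbers, for every real `d > 0`.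
If `d * lam ^ 2 > 1` then `a_n` is bounded below by a positive constant.
For the second model the statement also records that the weights `probT d n` of the trees cut at depth `n` are a probability
distribution and that the series defining `a_n` converges.
-/

namespace Vale.Agent.P154.KSFinal

open Vale.Agent.P154 Filter Topology

theorem not_tendsto_of_ge (a : ℕ → ℝ) (c : ℝ) (hc : 0 < c) (h : ∀ n, c ≤ a n) :
    ¬ Tendsto a atTop (𝓝 0) := by
  intro ht
  have := ge_of_tendsto' ht h
  linarith

theorem result :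
    (∀ (d : ℕ) (lam : ℝ), 2 ≤ d → 0 ≤ lam → lam ≤ 1 →
      ((d : ℝ) * lam ^ 2 ≤ 1 → Tendsto (fun n => aTV 3 d lam n) atTop (𝓝 0)) ∧
      (1 < (d : ℝ) * lam ^ 2 → ∃ c : ℝ, 0 < c ∧ ∀ n, c ≤ aTV 3 d lam n)) ∧
    (∀ (d lam : ℝ), 0 < d → 0 ≤ lam → lam ≤ 1 →
      (∀ n, (∀ T, 0 ≤ probT d n T) ∧ HasSum (probT d n) 1) ∧
      (∀ n, Summable (fun T : GT n => probT d n T * aT 3 lam n T)) ∧
      (d * lam ^ 2 ≤ 1 → Tendsto (fun n => aGW 3 d lam n) atTop (𝓝 0)) ∧
      (1 < d * lam ^ 2 → ∃ c : ℝ, 0 < c ∧ ∀ n, c ≤ aGW 3 d lam n)) := by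
  refine ⟨fun d lam hd h0 h1 => ⟨fun h2 => reg_nonreconstruction d hd lam h0 h2, fun h2 => ?_⟩,
    fun d lam hd h0 h1 => ?_⟩
  · rcases h1.eq_or_lt with h | h
    · exact ⟨2 / 3, by norm_num, fun n => by rw [h, reg_one d (by omega) n]⟩
    · exact ⟨_, div_pos (by linarith) (by linarith), reg_reconstruction d lam h0 h h2⟩
  · have hp : ∀ i j : Fin 3, 0 ≤ potts 3 lam i j := by
      intro i j
      unfold potts
      have : 0 ≤ (1 - lam) / ((3 : ℕ) : ℝ) := div_nonneg (by linarith) (by positivity)
      split_ifs <;> nlinarith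
    refine ⟨fun n => ⟨probT_nonneg d hd.le n, probT_hasSum d hd.le n⟩, fun n => ?_, fun h2 => ?_,
      fun h2 => ?_⟩
    · exact summable_probT_mul d hd.le n _ (aT_nonneg' 3 lam hp n) (aT_le_one 3 (by norm_num) lam hp n)
    · rcases h1.eq_or_lt with h | h
      · have hd1 : d ≤ 1 := by
          rw [h] at h2
          linarith
        exact gw_extinct 3 (by norm_num) d lam hd.le hd1 hp
      · exact gw_nonreconstruction d lam hd h0 h h2
    · rcases h1.eq_or_lt with h | h
      · have hd1 : 1 < d := by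
          rw [h] at h2
          linarith
        refine ⟨2 / 3 * ((d - 1) / d), by
          have : 0 < (d - 1) / d := div_pos (by linarith) hd
          positivity, fun n => ?_⟩
        rw [h]
        exact gw_one d hd1 n
      · exact ⟨_, div_pos (by linarith) (by linarith), gw_reconstruction d lam hd h0 h h2⟩

end Vale.Agent.P154.KSFinal
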