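import Vale.Agent.P154.GW.Reg
import Vale.Agent.P154.GW.Ext2
import Vale.Agent.P154.AF.MainK
import Vale.Agent.P154.KS.B
import Vale.Agent.P154.KS.C2
import Vale.Agent.P154.KS.D2
import Vale.Agent.P154.KS.H
import Vale.Agent.P154.KS.End2

/-!
# P154: three-state Potts channel, all admissible `lam`: assembly
-/

namespace Vale.Agent.P154

open Filter Topology

/-- Kesten-Stigum direction, regular tree, every admissible `lam`. -/
theorem reg_rec_all (d : ℕ) (lam : ℝ) (hd : 2 ≤ d) (h0 : -1 / 2 ≤ lam) (h1 : lam ≤ 1)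
    (h2 : 1 < (d : ℝ) * lam ^ 2) : ∃ c : ℝ, 0 < c ∧ ∀ n, c ≤ aTV 3 d lam n := by
  rcases lt_or_ge 0 lam with hp | hn
  · rcases h1.eq_or_lt with h | h
    · exact ⟨2 / 3, by norm_num, fun n => by rw [h, reg_one d (by omega) n]⟩
    · exact ⟨_, div_pos (by linarith) (by linarith), reg_reconstruction d lam hp.le h h2⟩
  · rcases h0.eq_or_lt with h | h
    · rw [← h] at h2 ⊢
      exact ⟨_, div_pos (by linarith) (by linarith), reg_reconstructionE d h2⟩
    · exact ⟨_, div_pos (by linarith) (by linarith), reg_reconstructionH d lam h hn h2⟩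

/-- Kesten-Stigum direction, Poisson tree, every admissible `lam`. -/
theorem gw_rec_all (d lam : ℝ) (hd : 0 < d) (h0 : -1 / 2 ≤ lam) (h1 : lam ≤ 1)
    (h2 : 1 < d * lam ^ 2) : ∃ c : ℝ, 0 < c ∧ ∀ n, c ≤ aGW 3 d lam n := by
  rcases lt_or_ge 0 lam with hp | hn
  · rcases h1.eq_or_lt with h | h
    · have hd1 : 1 < d := by
        rw [h] at h2
        linarith
      refine ⟨2 / 3 * ((d - 1) / d), by
        have : 0 < (d - 1) / d := div_pos (by linarith) hd
        positivity, fun n => ?_⟩
      rw [h]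
      exact gw_one d hd1 n
    · exact ⟨_, div_pos (by linarith) (by linarith), gw_reconstruction d lam hd hp.le h h2⟩
  · rcases h0.eq_or_lt with h | h
    · rw [← h] at h2 ⊢
      exact ⟨_, div_pos (by linarith) (by linarith), gw_reconstructionE d hd h2⟩
    · exact ⟨_, div_pos (by linarith) (by linarith), gw_reconstructionH d lam hd h hn h2⟩

/-- nonreconstruction, regular tree -/
theorem reg_non_all (d : ℕ) (lam : ℝ) (hd : 2 ≤ d) (h0 : -11 / 60 ≤ lam)
    (h2 : (d : ℝ) * lam ^ 2 ≤ 1) : Tendsto (fun n => aTV 3 d lam n) atTop (𝓝 0) := by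
  rcases lt_or_ge lam 0 with h | h
  · exact reg_nonreconstructionN d hd lam h0 h h2
  · exact reg_nonreconstruction d hd lam h h2

/-- nonreconstruction, Poisson tree -/
theorem gw_non_all (d lam : ℝ) (hd : 0 < d) (h0 : -11 / 60 ≤ lam) (h1 : lam ≤ 1)
    (h2 : d * lam ^ 2 ≤ 1) : Tendsto (fun n => aGW 3 d lam n) atTop (𝓝 0) := by
  rcases lt_or_ge lam 0 with hn | hn
  · exact gw_nonreconstructionN d lam hd h0 hn h2
  · rcases h1.eq_or_lt with h | h
    · have hd1 : d ≤ 1 := by
        rw [h] at h2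
        linarith
      exact gw_extinct 3 (by norm_num) d lam hd.le hd1
        (potts3_nonneg lam (by linarith) h1)
    · exact gw_nonreconstruction d lam hd hn h h2

end Vale.Agent.P154
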